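import Mathlib

namespace Vale.Agent.Lib.P183

universe u

/-- `r` is a congruence of the algebra on `A` whose operations are `ops i`, of arity `ar i`:
an equivalence relation compatible with every operation. -/
def IsCongruence {A : Type u} {ι : Type u} (ar : ι → ℕ) (ops : (i : ι) → (Fin (ar i) → A) → A)
    (r : Setoid A) : Prop :=
  ∀ (i : ι) (x y : Fin (ar i) → A), (∀ k, r (x k) (y k)) → r (ops i x) (ops i y)

/-- A lattice is representable if it is isomorphic to the lattice of all congruences of a finite
algebra (nonempty finite carrier, finitely many operations of finite arity). -/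
def Representable (L : Type u) [Lattice L] : Prop :=
  ∃ (A : Type u) (_ : Fintype A) (_ : Nonempty A) (ι : Type u) (_ : Fintype ι) (ar : ι → ℕ)
    (ops : (i : ι) → (Fin (ar i) → A) → A),
    Nonempty (L ≃o {r : Setoid A // IsCongruence ar ops r})

section
variable {P : Type u} [PartialOrder P]

/-- membership of a point of `Option P` in the class of `none` -/
def inI (I : LowerSet P) (x : Option P) : Prop := ∀ p, x = some p → p ∈ I

/-- the equivalence relation collapsing `I ∪ {none}` -/
def cong (I : LowerSet P) : Setoid (Option P) where
  r x y := x = y ∨ (inI I x ∧ inI I y)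
  iseqv := by
    refine ⟨fun x => Or.inl rfl, ?_, ?_⟩
    · intro x y h
      rcases h with h | h
      · exact Or.inl h.symm
      · exact Or.inr ⟨h.2, h.1⟩
    · intro x y z h1 h2
      rcases h1 with h1 | h1
      · subst h1; exact h2
      · rcases h2 with h2 | h2
        · subst h2; exact Or.inr h1
        · exact Or.inr ⟨h1.1, h2.2⟩

lemma cong_iff (I : LowerSet P) (x y : Option P) :
    (cong I) x y ↔ x = y ∨ (inI I x ∧ inI I y) := Iff.rfl

/-- the operations: for `q ≤ p`, send `some p` to `some q` and everything else to `none` -/
noncomputable def op (i : {pq : P × P // pq.2 ≤ pq.1}) (x : Fin 1 → Option P) : Option P :=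
  open Classical in if x 0 = some i.1.1 then some i.1.2 else none

lemma cong_isCongruence (I : LowerSet P) :
    IsCongruence (fun _ : {pq : P × P // pq.2 ≤ pq.1} => 1) op (cong I) := by
  intro i x y h
  have h0 := h 0
  rw [cong_iff] at h0 ⊢
  rcases h0 with h0 | h0
  · left
    unfold op
    rw [h0]
  · right
    constructor
    · intro p hp
      unfold op at hp
      split_ifs at hp with hx
      · have : i.1.1 ∈ I := h0.1 _ hx
        have hq : i.1.2 ∈ I := I.lower i.2 this
        have : i.1.2 = p := by simpa using hp
        rw [← this]; exact hq
    · intro p hp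
      unfold op at hp
      split_ifs at hp with hx
      · have : i.1.1 ∈ I := h0.2 _ hx
        have hq : i.1.2 ∈ I := I.lower i.2 this
        have : i.1.2 = p := by simpa using hp
        rw [← this]; exact hq

/-- the lower set attached to a congruence -/
def lowerOf (r : Setoid (Option P))
    (hr : IsCongruence (fun _ : {pq : P × P // pq.2 ≤ pq.1} => 1) op r) : LowerSet P where
  carrier := {p | r (some p) none}
  lower' := by
    intro p q hqp hp
    have := hr ⟨(p, q), hqp⟩ (fun _ => some p) (fun _ => none) (fun _ => hp)
    unfold op at this
    simpa using this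

lemma cong_lowerOf (r : Setoid (Option P))
    (hr : IsCongruence (fun _ : {pq : P × P // pq.2 ≤ pq.1} => 1) op r) :
    cong (lowerOf r hr) = r := by
  have key : ∀ x : Option P, inI (lowerOf r hr) x → r x none := by
    intro x hx
    cases x with
    | none => exact r.refl _
    | some p => exact hx p rfl
  have key2 : ∀ x y : Option P, r x y → x ≠ y → inI (lowerOf r hr) x := by
    intro x y hxy hne p hp
    subst hp
    have := hr ⟨(p, p), le_refl p⟩ (fun _ => some p) (fun _ => y) (fun _ => hxy)
    unfold op at this
    have hy : ¬ (y = some p) := fun h => hne h.symm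
    simp only [if_true, if_neg hy] at this
    exact this
  ext x y
  rw [cong_iff]
  constructor
  · rintro (h | h)
    · subst h; exact r.refl _
    · exact r.trans (key x h.1) (r.symm (key y h.2))
  · intro h
    by_cases hxy : x = y
    · exact Or.inl hxy
    · exact Or.inr ⟨key2 x y h hxy, key2 y x (r.symm h) (fun e => hxy e.symm)⟩

lemma cong_le_iff (I J : LowerSet P) : cong I ≤ cong J ↔ I ≤ J := by
  constructor
  · intro h p hp
    have h1 : (cong I) (some p) none := by
      rw [cong_iff]
      right
      refine ⟨?_, ?_⟩
      · intro q hq
        have : p = q := by simpa using hq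
        rw [← this]; exact hp
      · intro q hq
        simp at hq
    have h2 : (cong J) (some p) none := h h1
    rw [cong_iff] at h2
    rcases h2 with h2 | h2
    · simp at h2
    · exact h2.1 p rfl
  · intro h x y hxy
    rw [cong_iff] at hxy ⊢
    rcases hxy with hxy | hxy
    · exact Or.inl hxy
    · exact Or.inr ⟨fun p hp => h (hxy.1 p hp), fun p hp => h (hxy.2 p hp)⟩

/-- lower sets of `P` are order isomorphic to the congruences of the unary algebra on `Option P` -/
noncomputable def lowerSetIso :
    LowerSet P ≃o {r : Setoid (Option P) //
      IsCongruence (fun _ : {pq : P × P // pq.2 ≤ pq.1} => 1) op r} where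
  toFun I := ⟨cong I, cong_isCongruence I⟩
  invFun r := lowerOf r.1 r.2
  left_inv I := by
    apply le_antisymm
    · rw [← cong_le_iff]
      exact le_of_eq (cong_lowerOf _ _)
    · rw [← cong_le_iff]
      exact le_of_eq (cong_lowerOf _ _).symm
  right_inv r := Subtype.ext (cong_lowerOf r.1 r.2)
  map_rel_iff' := by
    intro I J
    exact cong_le_iff I J

end

theorem distrib_representable (L : Type u) [DistribLattice L] [Fintype L] [Nonempty L] :
    Representable L := by
  classical
  let _ : OrderBot L := Fintype.toOrderBot L
  let P := {a : L // SupIrred a}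
  refine ⟨Option P, inferInstance, inferInstance, {pq : P × P // pq.2 ≤ pq.1}, inferInstance,
    fun _ => 1, op, ⟨?_⟩⟩
  exact (OrderIso.lowerSetSupIrred (α := L)).trans lowerSetIso

end Vale.Agent.Lib.P183
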